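import Mathlib

/-!
# P121: the setting (definitions used by the statement)

The three-marginal Coulomb cost on Euclidean three-space and couplings with three equal
marginals.
-/

open MeasureTheory
open scoped ENNReal

namespace Vale.Agent.H33.P121

/-- Euclidean three-space (Euclidean norm, Lebesgue measure). -/
abbrev E3 : Type := EuclideanSpace ℝ (Fin 3)

/-- The Coulomb cost `1/|x₁-x₂| + 1/|x₁-x₃| + 1/|x₂-x₃|` of a triple `p = (x₁, x₂, x₃)`, as an
extended nonnegative real; it is `⊤` when two of the points coincide (the inverse of `0`). -/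
noncomputable def coulomb (p : E3 × E3 × E3) : ℝ≥0∞ :=
  (ENNReal.ofReal (dist p.1 p.2.1))⁻¹ + (ENNReal.ofReal (dist p.1 p.2.2))⁻¹
    + (ENNReal.ofReal (dist p.2.1 p.2.2))⁻¹

/-- `π` is a coupling all of whose three coordinate marginals equal `μ`. -/
def IsPlan (μ : Measure E3) (π : Measure (E3 × E3 × E3)) : Prop :=
  π.map (fun p => p.1) = μ ∧ π.map (fun p => p.2.1) = μ ∧ π.map (fun p => p.2.2) = μ

end Vale.Agent.H33.P121
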