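import Mathlib
import Vale.Agent.H33.P121.Setting

/-!
# P121: internal definitions

`flat a`: the triples lying in one plane orthogonal to `a`.  `transl a s`: the translation
`x ↦ x + s • a` of `E3`.  `shift a s`: move the first point of a triple by `s • a`.
`comp γ f1 f2 a t`: the competitor built from `γ`: the part of `γ` with density `f1 ∘ pr₁` has its
first point moved by `t • a`, the part with density `f2 ∘ pr₁` has it moved by `-t • a`, the rest
(density `1 - (f1 + f2) ∘ pr₁`) is kept.
-/

open MeasureTheory
open scoped ENNReal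

namespace Vale.Agent.H33.P121

/-- The triples `(x₁, x₂, x₃)` with `⟪x₂ - x₁, a⟫ = 0` and `⟪x₃ - x₁, a⟫ = 0`. -/
def flat (a : E3) : Set (E3 × E3 × E3) :=
  {p | inner ℝ (p.2.1 - p.1) a = 0 ∧ inner ℝ (p.2.2 - p.1) a = 0}

/-- The translation `x ↦ x + s • a`. -/
def transl (a : E3) (s : ℝ) (x : E3) : E3 := x + s • a

/-- Move the first point of a triple by `s • a`. -/
def shift (a : E3) (s : ℝ) (p : E3 × E3 × E3) : E3 × E3 × E3 := (p.1 + s • a, p.2.1, p.2.2)

/-- The competitor built from `γ`, the densities `f1`, `f2` (functions of the first point) and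
the displacement `t • a`. -/
noncomputable def comp (γ : Measure (E3 × E3 × E3)) (f1 f2 : E3 → ℝ≥0∞) (a : E3) (t : ℝ) :
    Measure (E3 × E3 × E3) :=
  γ.withDensity (fun p => 1 - (f1 p.1 + f2 p.1))
    + (γ.withDensity (fun p => f1 p.1)).map (shift a t)
    + (γ.withDensity (fun p => f2 p.1)).map (shift a (-t))

end Vale.Agent.H33.P121
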