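import Mathlib
import Vale.Agent.H33.P121.Defs

/-!
# P121, row Q2: measurability

`coulomb` is measurable (distances are continuous, `ENNReal.measurable_ofReal`,
`Measurable.inv`, sums); `flat a` is closed (two continuous equations), hence measurable;
`shift a s` and `transl a s` are continuous, hence measurable.
Helper lemmas in this file: names starting with `meas_`.
-/

open MeasureTheory
open scoped ENNReal

namespace Vale.Agent.H33.P121

/-- ROW Q2a. -/
theorem measurable_coulomb : Measurable coulomb := by
  have h1 : Measurable (fun p : E3 × E3 × E3 => dist p.1 p.2.1) :=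
    (continuous_fst.dist (continuous_fst.comp continuous_snd)).measurable
  have h2 : Measurable (fun p : E3 × E3 × E3 => dist p.1 p.2.2) :=
    (continuous_fst.dist (continuous_snd.comp continuous_snd)).measurable
  have h3 : Measurable (fun p : E3 × E3 × E3 => dist p.2.1 p.2.2) :=
    ((continuous_fst.comp continuous_snd).dist (continuous_snd.comp continuous_snd)).measurable
  have e1 : Measurable (fun p : E3 × E3 × E3 => (ENNReal.ofReal (dist p.1 p.2.1))⁻¹) :=
    (ENNReal.measurable_ofReal.comp h1).inv
  have e2 : Measurable (fun p : E3 × E3 × E3 => (ENNReal.ofReal (dist p.1 p.2.2))⁻¹) :=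
    (ENNReal.measurable_ofReal.comp h2).inv
  have e3 : Measurable (fun p : E3 × E3 × E3 => (ENNReal.ofReal (dist p.2.1 p.2.2))⁻¹) :=
    (ENNReal.measurable_ofReal.comp h3).inv
  exact (e1.add e2).add e3

/-- ROW Q2b. -/
theorem measurableSet_flat (a : E3) : MeasurableSet (flat a) := by
  have h1 : Continuous (fun p : E3 × E3 × E3 => inner ℝ (p.2.1 - p.1) a) :=
    ((continuous_fst.comp continuous_snd).sub continuous_fst).inner continuous_const
  have h2 : Continuous (fun p : E3 × E3 × E3 => inner ℝ (p.2.2 - p.1) a) :=
    ((continuous_snd.comp continuous_snd).sub continuous_fst).inner continuous_const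
  have hc : IsClosed (flat a) :=
    IsClosed.and (isClosed_eq h1 continuous_const) (isClosed_eq h2 continuous_const)
  exact hc.measurableSet

/-- ROW Q2c. -/
theorem measurable_shift (a : E3) (s : ℝ) : Measurable (shift a s) := by
  have hc : Continuous (shift a s) :=
    (continuous_fst.add continuous_const).prodMk
      ((continuous_fst.comp continuous_snd).prodMk (continuous_snd.comp continuous_snd))
  exact hc.measurable

/-- ROW Q2d. -/
theorem measurable_transl (a : E3) (s : ℝ) : Measurable (transl a s) := by
  have hc : Continuous (transl a s) := continuous_id.add continuous_const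
  exact hc.measurable

end Vale.Agent.H33.P121
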