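import Mathlib
import Vale.Agent.H33.P121.Defs
import Vale.Agent.H33.P121.Meas

/-!
# P121, row Q7: the competitor has the same three marginals

Write `A = γ.withDensity (1 - (f1 + f2) ∘ pr₁)`, `B = γ.withDensity (f1 ∘ pr₁)`,
`C = γ.withDensity (f2 ∘ pr₁)`, so `comp γ f1 f2 a t = A + B.map (shift a t) + C.map (shift a (-t))`.
`comp_split`: `A + B + C = γ` (`withDensity_add_left`, the three densities add up to `1`
pointwise because `f1 + f2 ≤ 1`: `tsub_add_cancel_of_le`, and `withDensity_one`).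
`comp_map_snd`, `comp_map_thd`: `pr₂ ∘ shift a s = pr₂`, `pr₃ ∘ shift a s = pr₃`
(`Measure.map_map`, `Measure.map_add`), so the marginal is that of `A + B + C = γ`.
`comp_map_fst`: `pr₁ ∘ shift a s = transl a s ∘ pr₁`, so the first marginal is
`A.map pr₁ + (B.map pr₁).map (transl a t) + (C.map pr₁).map (transl a (-t))`
`= A.map pr₁ + ν1.map (transl a t) + (ν1.map (transl a t)).map (transl a (-t))`, and
`transl a (-t) ∘ transl a t = id`, so this is `A.map pr₁ + C.map pr₁ + B.map pr₁ = γ.map pr₁`.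
Helper lemmas in this file: names starting with `marg_`.
-/

open MeasureTheory
open scoped ENNReal

namespace Vale.Agent.H33.P121

/-- ROW Q7a. -/
theorem comp_split (γ : Measure (E3 × E3 × E3)) (f1 f2 : E3 → ℝ≥0∞) (hf1 : Measurable f1)
    (hf2 : Measurable f2) (hle : ∀ x, f1 x + f2 x ≤ 1) :
    γ.withDensity (fun p => 1 - (f1 p.1 + f2 p.1)) + γ.withDensity (fun p => f1 p.1)
      + γ.withDensity (fun p => f2 p.1) = γ := by
  have hA : Measurable (fun p : E3 × E3 × E3 => 1 - (f1 p.1 + f2 p.1)) :=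
    measurable_const.sub ((hf1.comp measurable_fst).add (hf2.comp measurable_fst))
  have hB : Measurable (fun p : E3 × E3 × E3 => f1 p.1) := hf1.comp measurable_fst
  rw [← withDensity_add_left hA, ← withDensity_add_left (hA.add hB)]
  have h1 : ((fun p : E3 × E3 × E3 => 1 - (f1 p.1 + f2 p.1)) + (fun p => f1 p.1))
      + (fun p => f2 p.1) = 1 := by
    funext p
    simp only [Pi.add_apply, Pi.one_apply]
    rw [add_assoc, tsub_add_cancel_of_le (hle p.1)]
  rw [h1, withDensity_one]

/-- The image of the competitor under a measurable map, term by term. -/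
theorem marg_map_comp (γ : Measure (E3 × E3 × E3)) (f1 f2 : E3 → ℝ≥0∞) (a : E3) (t : ℝ)
    {β : Type*} [MeasurableSpace β] (g : E3 × E3 × E3 → β) (hg : Measurable g) :
    (comp γ f1 f2 a t).map g = (γ.withDensity (fun p => 1 - (f1 p.1 + f2 p.1))).map g
      + (γ.withDensity (fun p => f1 p.1)).map (g ∘ shift a t)
      + (γ.withDensity (fun p => f2 p.1)).map (g ∘ shift a (-t)) := by
  unfold comp
  rw [Measure.map_add _ _ hg, Measure.map_add _ _ hg, Measure.map_map hg (measurable_shift a t),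
    Measure.map_map hg (measurable_shift a (-t))]

/-- ROW Q7b. -/
theorem comp_map_snd (γ : Measure (E3 × E3 × E3)) (f1 f2 : E3 → ℝ≥0∞) (hf1 : Measurable f1)
    (hf2 : Measurable f2) (hle : ∀ x, f1 x + f2 x ≤ 1) (a : E3) (t : ℝ) :
    (comp γ f1 f2 a t).map (fun p => p.2.1) = γ.map (fun p => p.2.1) := by
  have hm : Measurable (fun p : E3 × E3 × E3 => p.2.1) := measurable_fst.comp measurable_snd
  rw [marg_map_comp γ f1 f2 a t _ hm]
  have e1 : (fun p : E3 × E3 × E3 => p.2.1) ∘ shift a t = fun p => p.2.1 := rfl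
  have e2 : (fun p : E3 × E3 × E3 => p.2.1) ∘ shift a (-t) = fun p => p.2.1 := rfl
  rw [e1, e2, ← Measure.map_add _ _ hm, ← Measure.map_add _ _ hm,
    comp_split γ f1 f2 hf1 hf2 hle]

/-- ROW Q7c. -/
theorem comp_map_thd (γ : Measure (E3 × E3 × E3)) (f1 f2 : E3 → ℝ≥0∞) (hf1 : Measurable f1)
    (hf2 : Measurable f2) (hle : ∀ x, f1 x + f2 x ≤ 1) (a : E3) (t : ℝ) :
    (comp γ f1 f2 a t).map (fun p => p.2.2) = γ.map (fun p => p.2.2) := by
  have hm : Measurable (fun p : E3 × E3 × E3 => p.2.2) := measurable_snd.comp measurable_snd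
  rw [marg_map_comp γ f1 f2 a t _ hm]
  have e1 : (fun p : E3 × E3 × E3 => p.2.2) ∘ shift a t = fun p => p.2.2 := rfl
  have e2 : (fun p : E3 × E3 × E3 => p.2.2) ∘ shift a (-t) = fun p => p.2.2 := rfl
  rw [e1, e2, ← Measure.map_add _ _ hm, ← Measure.map_add _ _ hm,
    comp_split γ f1 f2 hf1 hf2 hle]

/-- ROW Q7d. -/
theorem comp_map_fst (γ : Measure (E3 × E3 × E3)) (f1 f2 : E3 → ℝ≥0∞) (hf1 : Measurable f1)
    (hf2 : Measurable f2) (hle : ∀ x, f1 x + f2 x ≤ 1) (a : E3) (t : ℝ) (ν1 : Measure E3)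
    (h1 : (γ.withDensity (fun p => f1 p.1)).map (fun p => p.1) = ν1)
    (h2 : (γ.withDensity (fun p => f2 p.1)).map (fun p => p.1) = ν1.map (transl a t)) :
    (comp γ f1 f2 a t).map (fun p => p.1) = γ.map (fun p => p.1) := by
  have hm : Measurable (fun p : E3 × E3 × E3 => p.1) := measurable_fst
  rw [marg_map_comp γ f1 f2 a t _ hm]
  have e1 : (fun p : E3 × E3 × E3 => p.1) ∘ shift a t = transl a t ∘ (fun p => p.1) := rfl
  have e2 : (fun p : E3 × E3 × E3 => p.1) ∘ shift a (-t) = transl a (-t) ∘ (fun p => p.1) :=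
    rfl
  have e3 : transl a (-t) ∘ transl a t = id := by
    funext x
    simp [transl]
  have hB : (γ.withDensity (fun p => f1 p.1)).map (transl a t ∘ (fun p => p.1))
      = (γ.withDensity (fun p => f2 p.1)).map (fun p => p.1) := by
    rw [← Measure.map_map (measurable_transl a t) hm, h1, h2]
  have hC : (γ.withDensity (fun p => f2 p.1)).map (transl a (-t) ∘ (fun p => p.1))
      = (γ.withDensity (fun p => f1 p.1)).map (fun p => p.1) := by
    rw [← Measure.map_map (measurable_transl a (-t)) hm, h2,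
      Measure.map_map (measurable_transl a (-t)) (measurable_transl a t), e3, Measure.map_id, h1]
  rw [e1, e2, hB, hC, add_right_comm, ← Measure.map_add _ _ hm, ← Measure.map_add _ _ hm,
    comp_split γ f1 f2 hf1 hf2 hle]

end Vale.Agent.H33.P121
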