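import Mathlib
import Vale.Agent.H33.P121.Defs

/-!
# P121, row Q1: moving the first point orthogonally to the plane of a flat triple lowers the cost

For `p = (x₁, x₂, x₃) ∈ flat a` and `j = 2, 3`:
`‖x₁ + s • a - xⱼ‖² = ‖x₁ - xⱼ‖² + s² ‖a‖²` (the cross term `2 s ⟪x₁ - xⱼ, a⟫` vanishes), so
`dist x₁ xⱼ ≤ dist (x₁ + s • a) xⱼ`, with strict inequality when `s ≠ 0`, `a ≠ 0`.
`coulomb_shift_le`: each of the first two terms of `coulomb` does not increase
(`ENNReal.inv_le_inv`, `ENNReal.ofReal_le_ofReal`), the third is unchanged.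
`coulomb_shift_lt`: if `coulomb p ≠ ⊤` all three terms are finite, so the distances are positive
(`ENNReal.inv_ne_top`, `ENNReal.ofReal_pos`), the first two terms decrease strictly
(`ENNReal.inv_lt_inv`, `ENNReal.ofReal_lt_ofReal_iff`) and the sum decreases strictly
(`ENNReal.add_lt_add`, `ENNReal.add_lt_add_right` with the third term finite).
Helper lemmas in this file: names starting with `pw_`.
-/

open MeasureTheory
open scoped ENNReal

namespace Vale.Agent.H33.P121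

/-- the norm identity behind the row -/
lemma pw_dist_sq (a x y : E3) (s : ℝ) (h : inner ℝ (y - x) a = 0) :
    dist (x + s • a) y ^ 2 = dist x y ^ 2 + s ^ 2 * ‖a‖ ^ 2 := by
  have h0 : inner ℝ (x - y) a = 0 := by
    have e : x - y = -(y - x) := by abel
    rw [e, inner_neg_left, h, neg_zero]
  have e1 : x + s • a - y = (x - y) + s • a := by abel
  rw [dist_eq_norm, dist_eq_norm, e1, norm_add_sq_real, inner_smul_right, h0, norm_smul,
    Real.norm_eq_abs, mul_pow, sq_abs]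
  ring

lemma pw_dist_le (a x y : E3) (s : ℝ) (h : inner ℝ (y - x) a = 0) :
    dist x y ≤ dist (x + s • a) y := by
  have h1 := pw_dist_sq a x y s h
  have h2 : 0 ≤ s ^ 2 * ‖a‖ ^ 2 := by positivity
  refine (pow_le_pow_iff_left₀ dist_nonneg dist_nonneg two_ne_zero).mp ?_
  linarith

lemma pw_dist_lt (a x y : E3) (ha : a ≠ 0) (s : ℝ) (hs : s ≠ 0)
    (h : inner ℝ (y - x) a = 0) : dist x y < dist (x + s • a) y := by
  have h1 := pw_dist_sq a x y s h
  have hn : 0 < ‖a‖ := norm_pos_iff.mpr ha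
  have h2 : 0 < s ^ 2 * ‖a‖ ^ 2 := by positivity
  refine (pow_lt_pow_iff_left₀ dist_nonneg dist_nonneg two_ne_zero).mp ?_
  linarith

/-- ROW Q1a. -/
theorem coulomb_shift_le (a : E3) (s : ℝ) (p : E3 × E3 × E3) (hp : p ∈ flat a) :
    coulomb (shift a s p) ≤ coulomb p := by
  obtain ⟨h1, h2⟩ := hp
  unfold coulomb shift
  refine add_le_add (add_le_add ?_ ?_) le_rfl
  · exact ENNReal.inv_le_inv.mpr (ENNReal.ofReal_le_ofReal (pw_dist_le a p.1 p.2.1 s h1))
  · exact ENNReal.inv_le_inv.mpr (ENNReal.ofReal_le_ofReal (pw_dist_le a p.1 p.2.2 s h2))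

/-- ROW Q1b. -/
theorem coulomb_shift_lt (a : E3) (ha : a ≠ 0) (s : ℝ) (hs : s ≠ 0) (p : E3 × E3 × E3)
    (hp : p ∈ flat a) (hfin : coulomb p ≠ ⊤) : coulomb (shift a s p) < coulomb p := by
  obtain ⟨h1, h2⟩ := hp
  unfold coulomb at hfin
  obtain ⟨h12, h3⟩ := ENNReal.add_ne_top.mp hfin
  obtain ⟨hf1, hf2⟩ := ENNReal.add_ne_top.mp h12
  have hd1 : 0 < dist p.1 p.2.1 := by
    have h := ENNReal.inv_ne_top.mp hf1
    exact ENNReal.ofReal_pos.mp (pos_iff_ne_zero.mpr h)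
  have hd2 : 0 < dist p.1 p.2.2 := by
    have h := ENNReal.inv_ne_top.mp hf2
    exact ENNReal.ofReal_pos.mp (pos_iff_ne_zero.mpr h)
  have hl1 := pw_dist_lt a p.1 p.2.1 ha s hs h1
  have hl2 := pw_dist_lt a p.1 p.2.2 ha s hs h2
  have hs1 : (ENNReal.ofReal (dist (p.1 + s • a) p.2.1))⁻¹ < (ENNReal.ofReal (dist p.1 p.2.1))⁻¹ :=
    ENNReal.inv_lt_inv.mpr ((ENNReal.ofReal_lt_ofReal_iff (hd1.trans hl1)).mpr hl1)
  have hs2 : (ENNReal.ofReal (dist (p.1 + s • a) p.2.2))⁻¹ < (ENNReal.ofReal (dist p.1 p.2.2))⁻¹ :=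
    ENNReal.inv_lt_inv.mpr ((ENNReal.ofReal_lt_ofReal_iff (hd2.trans hl2)).mpr hl2)
  unfold coulomb shift
  exact ENNReal.add_lt_add_right h3 (ENNReal.add_lt_add hs1 hs2)

end Vale.Agent.H33.P121
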