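import Mathlib
import Vale.Agent.H33.P121.Defs
import Vale.Agent.H33.P121.Meas
import Vale.Agent.H33.P121.Pointwise
import Vale.Agent.H33.P121.Marg

/-!
# P121, row Q8: the competitor has strictly smaller cost

With `A`, `B`, `C` as in `Marg.lean`:
`∫⁻ coulomb ∂(comp γ f1 f2 a t) = ∫⁻ coulomb ∂A + ∫⁻ coulomb ∘ shift a t ∂B
  + ∫⁻ coulomb ∘ shift a (-t) ∂C` (`lintegral_add_measure`, `lintegral_map`).
`B ≪ γ` and `C ≪ γ` (`withDensity_absolutelyContinuous`), so `B`- and `C`-a.e. triple is in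
`flat a`, and `coulomb < ⊤` holds `γ`-a.e. (`ae_lt_top measurable_coulomb hfin`), hence `B`-a.e.
So `∫⁻ coulomb ∘ shift a (-t) ∂C ≤ ∫⁻ coulomb ∂C` (`coulomb_shift_le`, `lintegral_mono_ae`) and
`∫⁻ coulomb ∘ shift a t ∂B < ∫⁻ coulomb ∂B` (`lintegral_strict_mono` with `B ≠ 0`,
`coulomb_shift_lt`; the left side is finite: it is `≤ ∫⁻ coulomb ∂B ≤ ∫⁻ coulomb ∂γ` because
`B ≤ γ`, the density being `≤ 1`; or use `comp_split` and `lintegral_add_measure`).
Finally `∫⁻ coulomb ∂A + ∫⁻ coulomb ∂B + ∫⁻ coulomb ∂C = ∫⁻ coulomb ∂γ` (`comp_split`), all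
terms finite, so the strict inequality survives the sum (`ENNReal.add_lt_add_of_le_of_lt`,
`ENNReal.add_lt_add_of_lt_of_le`).
Helper lemmas in this file: names starting with `cost_`.
-/

open MeasureTheory
open scoped ENNReal

namespace Vale.Agent.H33.P121

/-- ROW Q8. -/
theorem lintegral_comp_lt (γ : Measure (E3 × E3 × E3)) [IsFiniteMeasure γ] (a : E3) (ha : a ≠ 0)
    (t : ℝ) (ht : t ≠ 0) (f1 f2 : E3 → ℝ≥0∞) (hf1 : Measurable f1) (hf2 : Measurable f2)
    (hle : ∀ x, f1 x + f2 x ≤ 1) (hflat : ∀ᵐ p ∂γ, p ∈ flat a)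
    (hfin : ∫⁻ p, coulomb p ∂γ ≠ ⊤) (hne : γ.withDensity (fun p => f1 p.1) ≠ 0) :
    ∫⁻ p, coulomb p ∂(comp γ f1 f2 a t) < ∫⁻ p, coulomb p ∂γ := by
  have hsplit : γ.withDensity (fun p => 1 - (f1 p.1 + f2 p.1)) + γ.withDensity (fun p => f1 p.1)
      + γ.withDensity (fun p => f2 p.1) = γ := comp_split γ f1 f2 hf1 hf2 hle
  have hγ : ∫⁻ p, coulomb p ∂γ
      = ∫⁻ p, coulomb p ∂(γ.withDensity (fun p => 1 - (f1 p.1 + f2 p.1)))
        + ∫⁻ p, coulomb p ∂(γ.withDensity (fun p => f1 p.1))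
        + ∫⁻ p, coulomb p ∂(γ.withDensity (fun p => f2 p.1)) := by
    conv_lhs => rw [← hsplit]
    rw [lintegral_add_measure, lintegral_add_measure]
  have hcomp : ∫⁻ p, coulomb p ∂(comp γ f1 f2 a t)
      = ∫⁻ p, coulomb p ∂(γ.withDensity (fun p => 1 - (f1 p.1 + f2 p.1)))
        + ∫⁻ p, coulomb (shift a t p) ∂(γ.withDensity (fun p => f1 p.1))
        + ∫⁻ p, coulomb (shift a (-t) p) ∂(γ.withDensity (fun p => f2 p.1)) := by
    unfold comp
    rw [lintegral_add_measure, lintegral_add_measure,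
      lintegral_map measurable_coulomb (measurable_shift a t),
      lintegral_map measurable_coulomb (measurable_shift a (-t))]
  have hBac : γ.withDensity (fun p => f1 p.1) ≪ γ := withDensity_absolutelyContinuous γ _
  have hCac : γ.withDensity (fun p => f2 p.1) ≪ γ := withDensity_absolutelyContinuous γ _
  have hBflat : ∀ᵐ p ∂(γ.withDensity (fun p => f1 p.1)), p ∈ flat a := hBac.ae_le hflat
  have hCflat : ∀ᵐ p ∂(γ.withDensity (fun p => f2 p.1)), p ∈ flat a := hCac.ae_le hflat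
  have hBfin : ∀ᵐ p ∂(γ.withDensity (fun p => f1 p.1)), coulomb p < ⊤ :=
    hBac.ae_le (ae_lt_top measurable_coulomb hfin)
  have hAint : ∫⁻ p, coulomb p ∂(γ.withDensity (fun p => 1 - (f1 p.1 + f2 p.1))) ≠ ⊤ := by
    refine ne_top_of_le_ne_top hfin ?_
    rw [hγ]
    exact le_add_right (le_add_right le_rfl)
  have hBint : ∫⁻ p, coulomb p ∂(γ.withDensity (fun p => f1 p.1)) ≠ ⊤ := by
    refine ne_top_of_le_ne_top hfin ?_
    rw [hγ]
    exact le_add_right le_add_self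
  have hCint : ∫⁻ p, coulomb p ∂(γ.withDensity (fun p => f2 p.1)) ≠ ⊤ := by
    refine ne_top_of_le_ne_top hfin ?_
    rw [hγ]
    exact le_add_self
  have hCle : ∫⁻ p, coulomb (shift a (-t) p) ∂(γ.withDensity (fun p => f2 p.1))
      ≤ ∫⁻ p, coulomb p ∂(γ.withDensity (fun p => f2 p.1)) :=
    lintegral_mono_ae (hCflat.mono fun p hp => coulomb_shift_le a (-t) p hp)
  have hBle : ∫⁻ p, coulomb (shift a t p) ∂(γ.withDensity (fun p => f1 p.1))
      ≤ ∫⁻ p, coulomb p ∂(γ.withDensity (fun p => f1 p.1)) :=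
    lintegral_mono_ae (hBflat.mono fun p hp => coulomb_shift_le a t p hp)
  have hBlt : ∫⁻ p, coulomb (shift a t p) ∂(γ.withDensity (fun p => f1 p.1))
      < ∫⁻ p, coulomb p ∂(γ.withDensity (fun p => f1 p.1)) := by
    refine lintegral_strict_mono hne measurable_coulomb.aemeasurable
      (ne_top_of_le_ne_top hBint hBle) ?_
    filter_upwards [hBflat, hBfin] with p hp hpfin
    exact coulomb_shift_lt a ha t ht p hp hpfin.ne
  rw [hcomp, hγ]
  exact ENNReal.add_lt_add_of_lt_of_le (ne_top_of_le_ne_top hCint hCle)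
    (ENNReal.add_lt_add_left hAint hBlt) hCle

end Vale.Agent.H33.P121
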