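import Mathlib
import Vale.Agent.H33.P121.Defs

/-!
# P121, row Q3: an absolutely continuous nonzero finite measure dominates a multiple of Lebesgue
measure on a compact set of positive measure

Let `g = ν.rnDeriv volume` (measurable), so `ν = volume.withDensity g`
(`Measure.withDensity_rnDeriv_eq ν volume hν`). Since `ν ≠ 0`, `g` is not a.e. zero, so for some
`n : ℕ` the set `A = {x | ((n : ℝ≥0∞) + 1)⁻¹ ≤ g x}` has positive volume (the sets increase to
`{x | 0 < g x}`: `ENNReal.exists_inv_nat_lt`, `measure_iUnion_null_iff`). By Markov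
(`mul_meas_ge_le_lintegral`) `volume A < ⊤` because `∫⁻ g = ν univ < ⊤`. Inner regularity
(`MeasurableSet.exists_lt_isCompact_of_ne_top` with `r = 0`) gives a compact `K ⊆ A` with
`0 < volume K`. With `ε = ((n : ℝ≥0∞) + 1)⁻¹`: for measurable `S`,
`ε * volume (S ∩ K) = ∫⁻ x in S ∩ K, ε ≤ ∫⁻ x in S ∩ K, g x ≤ ∫⁻ x in S, g x = ν S`
(`Measure.le_iff`, `withDensity_apply`).
Helper lemmas in this file: names starting with `dens_`.
-/

open MeasureTheory
open scoped ENNReal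

namespace Vale.Agent.H33.P121

/-- ROW Q3. -/
theorem exists_compact_le (ν : Measure E3) [IsFiniteMeasure ν] (hν : ν ≪ volume) (h0 : ν ≠ 0) :
    ∃ (ε : ℝ≥0∞) (K : Set E3), ε ≠ 0 ∧ ε ≠ ⊤ ∧ IsCompact K ∧ volume K ≠ 0 ∧
      ε • (volume.restrict K) ≤ ν := by
  obtain ⟨g, hg, hνg⟩ : ∃ g : E3 → ℝ≥0∞, Measurable g ∧
      (volume : Measure E3).withDensity g = ν :=
    ⟨ν.rnDeriv volume, Measure.measurable_rnDeriv ν volume,
      Measure.withDensity_rnDeriv_eq ν volume hν⟩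
  have hex : ∃ n : ℕ, volume {x : E3 | ((n : ℝ≥0∞) + 1)⁻¹ ≤ g x} ≠ 0 := by
    by_contra hcon
    have hall : ∀ n : ℕ, volume {x : E3 | ((n : ℝ≥0∞) + 1)⁻¹ ≤ g x} = 0 := by
      intro n
      by_contra h
      exact hcon ⟨n, h⟩
    have hU : volume (⋃ n : ℕ, {x : E3 | ((n : ℝ≥0∞) + 1)⁻¹ ≤ g x}) = 0 :=
      measure_iUnion_null hall
    have hsub : {x : E3 | g x ≠ 0} ⊆ ⋃ n : ℕ, {x : E3 | ((n : ℝ≥0∞) + 1)⁻¹ ≤ g x} := by
      intro x hx
      obtain ⟨n, hn⟩ := ENNReal.exists_inv_nat_lt hx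
      refine Set.mem_iUnion.mpr ⟨n, ?_⟩
      have h1 : ((n : ℝ≥0∞) + 1)⁻¹ ≤ (n : ℝ≥0∞)⁻¹ := ENNReal.inv_le_inv.mpr le_self_add
      exact h1.trans hn.le
    have hg0 : g =ᵐ[volume] 0 := by
      have hnull : volume {x : E3 | g x ≠ 0} = 0 := measure_mono_null hsub hU
      exact (ae_iff (p := fun x => g x = 0)).mpr hnull
    apply h0
    rw [← hνg, withDensity_congr_ae hg0, withDensity_zero]
  obtain ⟨n, hn⟩ := hex
  obtain ⟨ε, hε⟩ : ∃ ε : ℝ≥0∞, ε = ((n : ℝ≥0∞) + 1)⁻¹ := ⟨_, rfl⟩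
  rw [← hε] at hn
  have hε0 : ε ≠ 0 := by
    rw [hε]
    exact ENNReal.inv_ne_zero.mpr (by simp)
  have hεtop : ε ≠ ⊤ := by
    rw [hε]
    exact ENNReal.inv_ne_top.mpr (by simp)
  have hA : MeasurableSet {x : E3 | ε ≤ g x} := measurableSet_le measurable_const hg
  have hAtop : volume {x : E3 | ε ≤ g x} ≠ ⊤ := by
    intro htop
    have hm := mul_meas_ge_le_lintegral (μ := (volume : Measure E3)) hg ε
    rw [htop, ENNReal.mul_top hε0] at hm
    have hint : ∫⁻ x, g x ∂(volume : Measure E3) = ν Set.univ := by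
      rw [← hνg, withDensity_apply _ MeasurableSet.univ, Measure.restrict_univ]
    rw [hint] at hm
    exact (measure_ne_top ν Set.univ) (top_le_iff.mp hm)
  obtain ⟨K, hKA, hKc, hKpos⟩ :=
    hA.exists_lt_isCompact_of_ne_top hAtop (pos_iff_ne_zero.mpr hn)
  refine ⟨ε, K, hε0, hεtop, hKc, hKpos.ne', ?_⟩
  rw [Measure.le_iff]
  intro S hS
  rw [Measure.smul_apply, Measure.restrict_apply hS, smul_eq_mul, ← hνg, withDensity_apply _ hS]
  calc ε * volume (S ∩ K) = ∫⁻ _x in S ∩ K, ε ∂volume := by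
        rw [setLIntegral_const]
    _ ≤ ∫⁻ x in S ∩ K, g x ∂volume :=
        setLIntegral_mono' (hS.inter hKc.measurableSet) (fun x hx => hKA hx.2)
    _ ≤ ∫⁻ x in S, g x ∂volume := lintegral_mono_set Set.inter_subset_left

end Vale.Agent.H33.P121
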