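import Mathlib
import Vale.Agent.H33.P121.Defs

/-!
# P121, row Q6: extracting from `γ` two parts with prescribed first marginals

If `ν1 + ν2 ≤ γ1`, `γ1 = γ.map pr₁` (a finite measure), there are measurable
`f1 f2 : E3 → ℝ≥0∞` with `f1 + f2 ≤ 1` EVERYWHERE such that the measure with density
`fᵢ ∘ pr₁` with respect to `γ` has first marginal `νᵢ`.

Proof. `νᵢ ≤ γ1`, so `νᵢ` is finite and `νᵢ ≪ γ1`. Let `gᵢ = νᵢ.rnDeriv γ1` (measurable,
`Measure.measurable_rnDeriv`), so `γ1.withDensity gᵢ = νᵢ` (`Measure.withDensity_rnDeriv_eq`).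
Then `γ1.withDensity (g1 + g2) = ν1 + ν2 ≤ γ1 = γ1.withDensity 1`, hence `g1 + g2 ≤ 1`
`γ1`-a.e. (for instance `ae_le_of_forall_setLIntegral_le_of_sigmaFinite`, or
`Measure.rnDeriv_add'` with `Measure.rnDeriv_le_one_of_le`). Let
`N = {x | 1 < g1 x + g2 x}` (measurable, `γ1`-null) and `fᵢ = Nᶜ.indicator gᵢ`. Then
`f1 + f2 ≤ 1` everywhere and `fᵢ = gᵢ` `γ1`-a.e. Finally, for measurable `f`,
`(γ.withDensity (f ∘ pr₁)).map pr₁ = γ1.withDensity f` (evaluate on a measurable set `S`:
`Measure.map_apply`, `withDensity_apply`, `setLIntegral_map` / `lintegral_map`), and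
`γ1.withDensity fᵢ = γ1.withDensity gᵢ = νᵢ` (`withDensity_congr_ae`).
Helper lemmas in this file: names starting with `ext_`.
-/

open MeasureTheory
open scoped ENNReal

namespace Vale.Agent.H33.P121

/-- The first marginal of `γ` with a density depending on the first point only. -/
theorem ext_map_withDensity (γ : Measure (E3 × E3 × E3)) (f : E3 → ℝ≥0∞) (hf : Measurable f) :
    (γ.withDensity (fun p => f p.1)).map (fun p => p.1)
      = (γ.map (fun p => p.1)).withDensity f := by
  ext S hS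
  have hfst : Measurable (fun p : E3 × E3 × E3 => p.1) := measurable_fst
  rw [Measure.map_apply hfst hS, withDensity_apply _ (hfst hS), withDensity_apply _ hS,
    setLIntegral_map hS hf hfst]

/-- ROW Q6. -/
theorem exists_densities (γ : Measure (E3 × E3 × E3)) [IsFiniteMeasure γ] (ν1 ν2 : Measure E3)
    (hle : ν1 + ν2 ≤ γ.map (fun p => p.1)) :
    ∃ f1 f2 : E3 → ℝ≥0∞, Measurable f1 ∧ Measurable f2 ∧ (∀ x, f1 x + f2 x ≤ 1) ∧
      (γ.withDensity (fun p => f1 p.1)).map (fun p => p.1) = ν1 ∧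
      (γ.withDensity (fun p => f2 p.1)).map (fun p => p.1) = ν2 := by
  set γ1 : Measure E3 := γ.map (fun p => p.1) with hγ1
  have hfst : Measurable (fun p : E3 × E3 × E3 => p.1) := measurable_fst
  have hfin : IsFiniteMeasure γ1 := by
    rw [hγ1]
    exact Measure.isFiniteMeasure_map γ _
  have h1 : ν1 ≤ γ1 := by
    refine le_trans ?_ hle
    exact Measure.le_add_right le_rfl
  have h2 : ν2 ≤ γ1 := by
    refine le_trans ?_ hle
    exact Measure.le_add_left le_rfl
  have hfin1 : IsFiniteMeasure ν1 := isFiniteMeasure_of_le γ1 h1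
  have hfin2 : IsFiniteMeasure ν2 := isFiniteMeasure_of_le γ1 h2
  have hsf : SigmaFinite γ1 := inferInstance
  have hs1 : SFinite ν1 := inferInstance
  have hs2 : SFinite ν2 := inferInstance
  have hld1 : ν1.HaveLebesgueDecomposition γ1 := inferInstance
  have hld2 : ν2.HaveLebesgueDecomposition γ1 := inferInstance
  have hac1 : ν1 ≪ γ1 := Measure.absolutelyContinuous_of_le h1
  have hac2 : ν2 ≪ γ1 := Measure.absolutelyContinuous_of_le h2
  set g1 : E3 → ℝ≥0∞ := ν1.rnDeriv γ1 with hg1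
  set g2 : E3 → ℝ≥0∞ := ν2.rnDeriv γ1 with hg2
  have hg1m : Measurable g1 := Measure.measurable_rnDeriv ν1 γ1
  have hg2m : Measurable g2 := Measure.measurable_rnDeriv ν2 γ1
  have hw1 : γ1.withDensity g1 = ν1 := Measure.withDensity_rnDeriv_eq ν1 γ1 hac1
  have hw2 : γ1.withDensity g2 = ν2 := Measure.withDensity_rnDeriv_eq ν2 γ1 hac2
  have hsum : ∀ᵐ x ∂γ1, g1 x + g2 x ≤ 1 := by
    have ha := Measure.rnDeriv_add' ν1 ν2 γ1
    have hb := Measure.rnDeriv_le_one_of_le hle
    filter_upwards [ha, hb] with x hx1 hx2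
    have : g1 x + g2 x = (ν1 + ν2).rnDeriv γ1 x := by
      rw [hx1]
      rfl
    rw [this]
    exact hx2
  set N : Set E3 := {x | 1 < g1 x + g2 x} with hN
  have hNm : MeasurableSet N := measurableSet_lt measurable_const (hg1m.add hg2m)
  have hNnull : ∀ᵐ x ∂γ1, x ∉ N := by
    filter_upwards [hsum] with x hx
    exact not_lt.mpr hx
  refine ⟨Nᶜ.indicator g1, Nᶜ.indicator g2, hg1m.indicator hNm.compl, hg2m.indicator hNm.compl,
    ?_, ?_, ?_⟩
  · intro x
    by_cases hx : x ∈ N
    · have hx' : x ∉ Nᶜ := fun h => h hx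
      rw [Set.indicator_of_notMem hx', Set.indicator_of_notMem hx']
      simp
    · have hx' : x ∈ Nᶜ := hx
      rw [Set.indicator_of_mem hx', Set.indicator_of_mem hx']
      exact not_lt.mp hx
  · rw [ext_map_withDensity γ _ (hg1m.indicator hNm.compl), ← hw1]
    refine withDensity_congr_ae ?_
    filter_upwards [hNnull] with x hx
    exact Set.indicator_of_mem (show x ∈ Nᶜ from hx) g1
  · rw [ext_map_withDensity γ _ (hg2m.indicator hNm.compl), ← hw2]
    refine withDensity_congr_ae ?_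
    filter_upwards [hNnull] with x hx
    exact Set.indicator_of_mem (show x ∈ Nᶜ from hx) g2

end Vale.Agent.H33.P121
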