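import Mathlib
import Vale.Agent.H33.P121.Defs

/-!
# P121, row Q4: a compact set of positive measure meets a small translate of itself in positive
measure

By `MeasureTheory.Measure.eventually_nhds_zero_measure_vadd_sdiff_lt` (the additive version of
`eventually_nhds_one_measure_smul_sdiff_lt`; `K` compact, closed, `ε = volume K ≠ 0`), for all `g`
near `0` in `E3`: `volume ((g +ᵥ K) \ K) < volume K`. The map `t ↦ (-t) • a` is continuous at `0`
with value `0`, so this holds for `g = (-t) • a` for all `t` near `0`; such `t ≠ 0` exist (the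
punctured neighbourhood filter of `0` in `ℝ` is nontrivial, or take `t = 1/(n+1)` for large `n`).
Since `volume (g +ᵥ K) = volume K` (`measure_vadd`), `volume ((g +ᵥ K) ∩ K) ≠ 0` (otherwise
`volume (g +ᵥ K) ≤ volume ((g +ᵥ K) \ K) < volume K`). For `g = (-t) • a`:
`(g +ᵥ K) ∩ K = K ∩ transl a t ⁻¹' K` (a point `y` is in `g +ᵥ K` iff `y + t • a ∈ K`).
Helper lemmas in this file: names starting with `stein_`.
-/

open MeasureTheory
open scoped ENNReal Pointwise

namespace Vale.Agent.H33.P121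

/-- ROW Q4. -/
theorem exists_transl_inter_pos (K : Set E3) (hK : IsCompact K) (hpos : volume K ≠ 0) (a : E3) :
    ∃ t : ℝ, t ≠ 0 ∧ volume (K ∩ transl a t ⁻¹' K) ≠ 0 := by
  have hev : ∀ᶠ g in nhds (0 : E3), volume ((g +ᵥ K) \ K) < volume K :=
    MeasureTheory.eventually_nhds_zero_measure_vadd_sdiff_lt hK hK.isClosed hpos
  have hcont : Filter.Tendsto (fun t : ℝ => (-t) • a) (nhds 0) (nhds (0 : E3)) := by
    have hc : Continuous (fun t : ℝ => (-t) • a) := by fun_prop
    have h := hc.tendsto 0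
    simpa using h
  have hev2 : ∀ᶠ t in nhds (0 : ℝ), volume (((-t) • a +ᵥ K) \ K) < volume K :=
    hcont.eventually hev
  have hev3 : ∀ᶠ t in nhdsWithin (0 : ℝ) {0}ᶜ, volume (((-t) • a +ᵥ K) \ K) < volume K :=
    hev2.filter_mono nhdsWithin_le_nhds
  have hne : ∀ᶠ t in nhdsWithin (0 : ℝ) {0}ᶜ, t ∈ ({0}ᶜ : Set ℝ) := eventually_mem_nhdsWithin
  obtain ⟨t, ht1, ht2⟩ := (hev3.and hne).exists
  refine ⟨t, ht2, ?_⟩
  have hset : K ∩ transl a t ⁻¹' K = ((-t) • a +ᵥ K) ∩ K := by
    ext y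
    simp only [Set.mem_inter_iff, Set.mem_preimage, transl]
    rw [Set.mem_vadd_set_iff_neg_vadd_mem]
    have hy : -((-t) • a) +ᵥ y = y + t • a := by
      rw [vadd_eq_add, neg_smul, neg_neg, add_comm]
    rw [hy]
    exact and_comm
  rw [hset]
  intro h0
  have h1 : volume ((-t) • a +ᵥ K)
      ≤ volume (((-t) • a +ᵥ K) ∩ K) + volume (((-t) • a +ᵥ K) \ K) :=
    measure_le_inter_add_sdiff _ _ _
  rw [h0, zero_add, measure_vadd] at h1
  exact absurd ht1 (not_lt.mpr h1)

end Vale.Agent.H33.P121
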