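import Mathlib
import Vale.Agent.H33.P121.Defs
import Vale.Agent.H33.P121.Meas
import Vale.Agent.H33.P121.Density
import Vale.Agent.H33.P121.Steinhaus

/-!
# P121, row Q5: matched mass

An absolutely continuous nonzero finite measure `ν` on `E3` dominates `ν1 + (transl a t)_* ν1`
for some `t ≠ 0` and some nonzero finite measure `ν1`.

Proof. `exists_compact_le` gives `ε`, `K` with `ε • volume.restrict K ≤ ν`;
`exists_transl_inter_pos` gives `t ≠ 0` with `volume B ≠ 0`, `B = K ∩ transl a t ⁻¹' K`
(measurable: `K` is compact hence closed, `transl` is measurable). Put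
`ν1 = (ε / 2) • volume.restrict B`. It is nonzero (`ν1 univ = ε / 2 * volume B`), finite
(`volume B ≤ volume K < ⊤`). For measurable `S`: `ν1 S = ε / 2 * volume (S ∩ B)
≤ ε / 2 * volume (S ∩ K)`, and `(ν1.map (transl a t)) S = ε / 2 * volume (transl a t ⁻¹' S ∩ B)
≤ ε / 2 * volume (transl a t ⁻¹' (S ∩ K)) = ε / 2 * volume (S ∩ K)` (a point of `B` is mapped
into `K`; translations preserve volume: `measure_preimage_add_right`). The sum is at most
`ε * volume (S ∩ K) ≤ ν S` (`Measure.le_iff`, `ENNReal.add_halves`).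
Helper lemmas in this file: names starting with `match_`.
-/

open MeasureTheory
open scoped ENNReal

namespace Vale.Agent.H33.P121

/-- ROW Q5. -/
theorem exists_matched (ν : Measure E3) [IsFiniteMeasure ν] (hν : ν ≪ volume) (h0 : ν ≠ 0)
    (a : E3) :
    ∃ (t : ℝ) (ν1 : Measure E3), t ≠ 0 ∧ ν1 ≠ 0 ∧ IsFiniteMeasure ν1 ∧
      ν1 + ν1.map (transl a t) ≤ ν := by
  obtain ⟨ε, K, hε0, hεT, hK, hKpos, hle⟩ := exists_compact_le ν hν h0
  obtain ⟨t, ht, hB⟩ := exists_transl_inter_pos K hK hKpos a
  have hKm : MeasurableSet K := hK.isClosed.measurableSet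
  have hT : Measurable (transl a t) := measurable_transl a t
  have hBm : MeasurableSet (K ∩ transl a t ⁻¹' K) := hKm.inter (hT hKm)
  have hKfin : volume K < ⊤ := hK.measure_lt_top
  have hBfin : volume (K ∩ transl a t ⁻¹' K) < ⊤ :=
    lt_of_le_of_lt (measure_mono Set.inter_subset_left) hKfin
  refine ⟨t, (ε / 2) • volume.restrict (K ∩ transl a t ⁻¹' K), ht, ?_, ?_, ?_⟩
  · intro h
    have h1 : ((ε / 2) • volume.restrict (K ∩ transl a t ⁻¹' K)) Set.univ = 0 := by
      rw [h]; simp
    rw [Measure.smul_apply, Measure.restrict_apply MeasurableSet.univ, Set.univ_inter,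
      smul_eq_mul] at h1
    rcases mul_eq_zero.mp h1 with h2 | h2
    · rcases ENNReal.div_eq_zero_iff.mp h2 with h3 | h3
      · exact hε0 h3
      · exact absurd h3 (by norm_num)
    · exact hB h2
  · refine ⟨?_⟩
    rw [Measure.smul_apply, Measure.restrict_apply MeasurableSet.univ, Set.univ_inter,
      smul_eq_mul]
    exact ENNReal.mul_lt_top (ENNReal.div_lt_top hεT (by norm_num)) hBfin
  · rw [Measure.le_iff]
    intro S hS
    rw [Measure.add_apply, Measure.map_apply hT hS, Measure.smul_apply, Measure.smul_apply,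
      Measure.restrict_apply hS, Measure.restrict_apply (hT hS), smul_eq_mul, smul_eq_mul]
    have h1 : volume (S ∩ (K ∩ transl a t ⁻¹' K)) ≤ volume (S ∩ K) :=
      measure_mono (Set.inter_subset_inter_right _ Set.inter_subset_left)
    have h2 : volume (transl a t ⁻¹' S ∩ (K ∩ transl a t ⁻¹' K)) ≤ volume (S ∩ K) := by
      have hsub : transl a t ⁻¹' S ∩ (K ∩ transl a t ⁻¹' K) ⊆ transl a t ⁻¹' (S ∩ K) := by
        intro x hx
        exact ⟨hx.1, hx.2.2⟩
      calc volume (transl a t ⁻¹' S ∩ (K ∩ transl a t ⁻¹' K))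
          ≤ volume (transl a t ⁻¹' (S ∩ K)) := measure_mono hsub
        _ = volume (S ∩ K) := by
          show volume ((fun x => x + t • a) ⁻¹' (S ∩ K)) = _
          exact measure_preimage_add_right volume (t • a) (S ∩ K)
    have h3 : ε * volume (S ∩ K) ≤ ν S := by
      have h4 := hle S
      rw [Measure.smul_apply, Measure.restrict_apply hS, smul_eq_mul] at h4
      exact h4
    calc ε / 2 * volume (S ∩ (K ∩ transl a t ⁻¹' K))
          + ε / 2 * volume (transl a t ⁻¹' S ∩ (K ∩ transl a t ⁻¹' K))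
        ≤ ε / 2 * volume (S ∩ K) + ε / 2 * volume (S ∩ K) :=
          add_le_add (mul_le_mul_right h1 _) (mul_le_mul_right h2 _)
      _ = ε * volume (S ∩ K) := by rw [← add_mul, ENNReal.add_halves]
      _ ≤ ν S := h3

end Vale.Agent.H33.P121
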