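import Mathlib
import Vale.Agent.H33.P121.Setting
import Vale.Agent.H33.P121.Defs
import Vale.Agent.H33.P121.Meas
import Vale.Agent.H33.P121.Matched
import Vale.Agent.H33.P121.Extract
import Vale.Agent.H33.P121.Marg
import Vale.Agent.H33.P121.Cost

/-!
# P121: an optimal plan gives no mass to the triples lying in a plane orthogonal to a fixed
direction

If `π (flat a) ≠ 0`, let `γ = π.restrict (flat a)`; its first marginal is absolutely continuous
and nonzero, so (`exists_matched`) it dominates `ν1 + (transl a t)_* ν1` with `t ≠ 0`, `ν1 ≠ 0`;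
`exists_densities` gives the densities, and `π.restrict (flat a)ᶜ + comp γ f1 f2 a t` is a plan
with the same marginals (`comp_map_fst/snd/thd`) and strictly smaller cost (`lintegral_comp_lt`).
-/

open MeasureTheory
open scoped ENNReal

namespace Vale.Agent.H33.P121

theorem plan_flat_null (μ : Measure E3) [IsProbabilityMeasure μ] (hμ : μ ≪ volume)
    (π : Measure (E3 × E3 × E3)) (hπ : IsPlan μ π) (hfin : ∫⁻ p, coulomb p ∂π ≠ ⊤)
    (hopt : ∀ π' : Measure (E3 × E3 × E3), IsPlan μ π' →
      ∫⁻ p, coulomb p ∂π ≤ ∫⁻ p, coulomb p ∂π')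
    (a : E3) (ha : a ≠ 0) :
    π {p | inner ℝ (p.2.1 - p.1) a = 0 ∧ inner ℝ (p.2.2 - p.1) a = 0} = 0 := by
  by_contra hG
  have hGm : MeasurableSet (flat a) := measurableSet_flat a
  have hfst : Measurable (fun p : E3 × E3 × E3 => p.1) := measurable_fst
  have hsnd : Measurable (fun p : E3 × E3 × E3 => p.2.1) := measurable_fst.comp measurable_snd
  have hthd : Measurable (fun p : E3 × E3 × E3 => p.2.2) := measurable_snd.comp measurable_snd
  have : IsFiniteMeasure π := by
    constructor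
    have h : π Set.univ = μ Set.univ := by
      rw [← hπ.1, Measure.map_apply hfst MeasurableSet.univ]
      rfl
    rw [h]
    exact measure_lt_top μ _
  have hγ1le : (π.restrict (flat a)).map (fun p => p.1) ≤ μ := by
    rw [← hπ.1]
    exact Measure.map_mono Measure.restrict_le_self hfst
  have hγ1ac : (π.restrict (flat a)).map (fun p => p.1) ≪ volume :=
    (Measure.absolutelyContinuous_of_le hγ1le).trans hμ
  have hγ1ne : (π.restrict (flat a)).map (fun p => p.1) ≠ 0 := by
    intro h0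
    apply hG
    have h : ((π.restrict (flat a)).map (fun p => p.1)) Set.univ = 0 := by
      rw [h0]
      simp
    rw [Measure.map_apply hfst MeasurableSet.univ, Set.preimage_univ,
      Measure.restrict_apply MeasurableSet.univ, Set.univ_inter] at h
    exact h
  have : IsFiniteMeasure ((π.restrict (flat a)).map (fun p => p.1)) :=
    isFiniteMeasure_of_le μ hγ1le
  obtain ⟨t, ν1, ht, hν1, _, hle⟩ :=
    exists_matched ((π.restrict (flat a)).map (fun p => p.1)) hγ1ac hγ1ne a
  obtain ⟨f1, f2, hf1, hf2, hf12, h1, h2⟩ :=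
    exists_densities (π.restrict (flat a)) ν1 (ν1.map (transl a t)) hle
  have hsplit : π.restrict (flat a)ᶜ + π.restrict (flat a) = π := by
    rw [add_comm]
    exact Measure.restrict_add_restrict_compl hGm
  have hplan : IsPlan μ (π.restrict (flat a)ᶜ + comp (π.restrict (flat a)) f1 f2 a t) := by
    refine ⟨?_, ?_, ?_⟩
    · rw [Measure.map_add _ _ hfst,
        comp_map_fst (π.restrict (flat a)) f1 f2 hf1 hf2 hf12 a t ν1 h1 h2,
        ← Measure.map_add _ _ hfst, hsplit]
      exact hπ.1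
    · rw [Measure.map_add _ _ hsnd, comp_map_snd (π.restrict (flat a)) f1 f2 hf1 hf2 hf12 a t,
        ← Measure.map_add _ _ hsnd, hsplit]
      exact hπ.2.1
    · rw [Measure.map_add _ _ hthd, comp_map_thd (π.restrict (flat a)) f1 f2 hf1 hf2 hf12 a t,
        ← Measure.map_add _ _ hthd, hsplit]
      exact hπ.2.2
  have hγfin : ∫⁻ p, coulomb p ∂(π.restrict (flat a)) ≠ ⊤ :=
    ne_top_of_le_ne_top hfin (lintegral_mono' Measure.restrict_le_self le_rfl)
  have hcfin : ∫⁻ p, coulomb p ∂(π.restrict (flat a)ᶜ) ≠ ⊤ :=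
    ne_top_of_le_ne_top hfin (lintegral_mono' Measure.restrict_le_self le_rfl)
  have hne : (π.restrict (flat a)).withDensity (fun p => f1 p.1) ≠ 0 := by
    intro h0
    apply hν1
    rw [← h1, h0]
    simp
  have hlt := lintegral_comp_lt (π.restrict (flat a)) a ha t ht f1 f2 hf1 hf2 hf12
    (ae_restrict_mem hGm) hγfin hne
  have hcost : ∫⁻ p, coulomb p ∂(π.restrict (flat a)ᶜ + comp (π.restrict (flat a)) f1 f2 a t)
      < ∫⁻ p, coulomb p ∂π := by
    calc ∫⁻ p, coulomb p ∂(π.restrict (flat a)ᶜ + comp (π.restrict (flat a)) f1 f2 a t)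
        = ∫⁻ p, coulomb p ∂(π.restrict (flat a)ᶜ)
          + ∫⁻ p, coulomb p ∂(comp (π.restrict (flat a)) f1 f2 a t) := by
          rw [lintegral_add_measure]
      _ < ∫⁻ p, coulomb p ∂(π.restrict (flat a)ᶜ) + ∫⁻ p, coulomb p ∂(π.restrict (flat a)) :=
          ENNReal.add_lt_add_left hcfin hlt
      _ = ∫⁻ p, coulomb p ∂π := by
          rw [← lintegral_add_measure, hsplit]
  exact absurd (hopt _ hplan) (not_le.mpr hcost)

theorem monge_flat_null (μ : Measure E3) [IsProbabilityMeasure μ] (hμ : μ ≪ volume)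
    (T2 T3 : E3 → E3) (h2 : MeasurePreserving T2 μ μ) (h3 : MeasurePreserving T3 μ μ)
    (hfin : ∫⁻ x, coulomb (x, T2 x, T3 x) ∂μ ≠ ⊤)
    (hopt : ∀ π' : Measure (E3 × E3 × E3), IsPlan μ π' →
      ∫⁻ x, coulomb (x, T2 x, T3 x) ∂μ ≤ ∫⁻ p, coulomb p ∂π')
    (a : E3) (ha : a ≠ 0) :
    μ {x | inner ℝ (T2 x - x) a = 0 ∧ inner ℝ (T3 x - x) a = 0} = 0 := by
  have hΦm : Measurable (fun x : E3 => ((x, T2 x, T3 x) : E3 × E3 × E3)) :=
    measurable_id.prodMk (h2.measurable.prodMk h3.measurable)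
  have hplan : IsPlan μ (μ.map (fun x : E3 => ((x, T2 x, T3 x) : E3 × E3 × E3))) := by
    have hsnd : Measurable (fun p : E3 × E3 × E3 => p.2.1) := measurable_fst.comp measurable_snd
    have hthd : Measurable (fun p : E3 × E3 × E3 => p.2.2) := measurable_snd.comp measurable_snd
    refine ⟨?_, ?_, ?_⟩
    · rw [Measure.map_map measurable_fst hΦm]
      exact Measure.map_id
    · rw [Measure.map_map hsnd hΦm]
      exact h2.map_eq
    · rw [Measure.map_map hthd hΦm]
      exact h3.map_eq
  have hcost : ∫⁻ p, coulomb p ∂(μ.map (fun x : E3 => ((x, T2 x, T3 x) : E3 × E3 × E3)))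
      = ∫⁻ x, coulomb (x, T2 x, T3 x) ∂μ :=
    lintegral_map measurable_coulomb hΦm
  have h := plan_flat_null μ hμ _ hplan (by rw [hcost]; exact hfin)
    (fun π' hπ' => by rw [hcost]; exact hopt π' hπ') a ha
  have hGm : MeasurableSet {p : E3 × E3 × E3 |
      inner ℝ (p.2.1 - p.1) a = 0 ∧ inner ℝ (p.2.2 - p.1) a = 0} := measurableSet_flat a
  rw [Measure.map_apply hΦm hGm] at h
  exact h

end Vale.Agent.H33.P121
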